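import Mathlib
import Vale.Agent.P074.Defs
import Vale.Agent.P074.Main

open MeasureTheory Vale.Agent.P074

theorem Vale.Agent.Results.P074.Sharp.result :
    ∀ d : ℕ, 2 ≤ d →
      IsGreatest {α : ℝ | Admissible d α} (1 / 3) ∧
      sSup {α : ℝ | Admissible d α} = 1 / 3 ∧
      ¬ Admissible d (1 / 2) ∧
      ∀ K : Set (EuclideanSpace ℝ (Fin d)), IsCompact K → Convex ℝ K → (interior K).Nonempty →
        ∀ Y : Set (EuclideanSpace ℝ (Fin d)), IsCompact Y →
          ∀ μ : Measure (EuclideanSpace ℝ (Fin d)), IsProbabilityMeasure μ → μ (compl Y) = 0 →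
            ∃ T, IsOptimalMap (unif K) μ T := by
  intro d hd
  have h : IsGreatest {α : ℝ | Admissible d α} (1 / 3) :=
    ⟨admissible_third hd, fun _ hα => le_third_of_admissible hd hα⟩
  refine ⟨h, h.csSup_eq, fun h2 => ?_, fun K hK hc hi Y hY μ _ hμ =>
    exists_optimalMap hd hK hc hi hY μ hμ⟩
  have := le_third_of_admissible hd h2
  norm_num at this
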