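import Mathlib
import Vale.Agent.P074.Defs
import Vale.Agent.P074.Counter

theorem Vale.Agent.Results.P074.UpperThird.result :
    ∀ d : ℕ, 2 ≤ d → ∀ α : ℝ, Vale.Agent.P074.Admissible d α → α ≤ 1 / 3 :=
  fun _ hd _ hα => Vale.Agent.P074.le_third_of_admissible hd hα
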